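import Vale.Agent.P371.Lower

namespace Vale.Agent.Results.P371.GammaOne

open Vale.Agent.P371

theorem result : ∀ m : ℕ, 1 ≤ m → LT 1 m = ENNReal.ofReal (Lone 1) := fun m hm => by
  rw [Lone_one]
  exact le_antisymm (upper_one m) (lower_one hm)

end Vale.Agent.Results.P371.GammaOne
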