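import Vale.Agent.P371.G.UpB
import Vale.Agent.P371.G.Const
import Vale.Agent.P371G.Low

namespace Vale.Agent.Results.P371.Sharp

open Vale.Agent.P371

theorem result : ∀ γ : ℝ, 1 / 2 < γ → γ < 3 / 2 → ∀ m : ℕ, 1 ≤ m →
    LT γ m = ENNReal.ofReal (Lone γ) := fun γ h0 h1 m hm => by
  refine le_antisymm ?_ (Vale.Agent.P371G.lower γ h0 h1 hm)
  obtain ⟨l, rfl⟩ : ∃ l, γ = l + 1 / 2 := ⟨γ - 1 / 2, by ring⟩
  have l0 : 0 < l := by linarith
  rw [G.lone_eq l0]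
  exact G.upper_gen l0 (by linarith) m

end Vale.Agent.Results.P371.Sharp
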